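import Vale.Agent.P305.R2.H52.Ang
import Mathlib.Analysis.Convex.Contractible

/-! Plane sets without holes. -/

set_option autoImplicit false

open Complex unitInterval

namespace Vale.Agent.P305.H52

/-- A set whose complement is path-connected or empty has no hole. -/
theorem noHole_of_compl {a : Set ℂ} (h : ∀ x, x ∉ a → ∀ y, y ∉ a → JoinedIn aᶜ x y) :
    NoHole a := by
  intro u v p p' hp hp' x hx y hy
  obtain ⟨d, hd⟩ := h x hx y hy
  have h1 := W_square p.continuous d.continuous fun s t e => hd t (e ▸ hp s)
  have h2 := W_square p'.continuous d.continuous fun s t e => hd t (e ▸ hp' s)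
  rw [d.source, d.target, p.source, p.target] at h1
  rw [d.source, d.target, p'.source, p'.target] at h2
  linear_combination h1 - h2

/-- Two paths in `a` which are homotopic in `a` turn equally around all points outside `a`. -/
theorem W_eq_of_homotopy {a : Set ℂ} {u v : ℂ} {p p' : Path u v} {F : I × I → ℂ}
    (hF : Continuous F) (ha : ∀ z, F z ∈ a) (h0 : ∀ t, F (0, t) = p t) (h1 : ∀ t, F (1, t) = p' t)
    (hu : ∀ s, F (s, 0) = u) (hv : ∀ s, F (s, 1) = v) {x : ℂ} (hx : x ∉ a) : W p x = W p' x := by
  have hne : ∀ z, F z ≠ x := fun z e => hx (e ▸ ha z)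
  have key := VL.square (F := fun z => F z - x) (by fun_prop) (fun z => sub_ne_zero.2 (hne z))
    (a := 0) (b := W p' x) (c := 0) (d := W p x) ?_ ?_ ?_ ?_
  · rw [zero_add, zero_add] at key
    exact key.symm
  · simp only [hu]
    exact VL.const (sub_ne_zero.2 (hu 0 ▸ hne (0, 0)))
  · simp only [h1]
    exact W_spec p'.continuous fun t => h1 t ▸ hne (1, t)
  · simp only [hv]
    exact VL.const (sub_ne_zero.2 (hv 0 ▸ hne (0, 1)))
  · simp only [h0]
    exact W_spec p.continuous fun t => h0 t ▸ hne (0, t)

/-- A simply connected set has no hole. -/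
theorem noHole_of_simply {a : Set ℂ} (h : IsSimplyConnected a) : NoHole a := by
  intro u v p p' hp hp' x hx y hy
  have := h.simplyConnectedSpace
  let q : Path (⟨u, p.source ▸ hp 0⟩ : a) ⟨v, p.target ▸ hp 1⟩ :=
    { toFun := fun t => ⟨p t, hp t⟩
      continuous_toFun := p.continuous.subtype_mk _
      source' := Subtype.ext p.source
      target' := Subtype.ext p.target }
  let q' : Path (⟨u, p.source ▸ hp 0⟩ : a) ⟨v, p.target ▸ hp 1⟩ :=
    { toFun := fun t => ⟨p' t, hp' t⟩
      continuous_toFun := p'.continuous.subtype_mk _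
      source' := Subtype.ext p'.source
      target' := Subtype.ext p'.target }
  obtain ⟨H⟩ := SimplyConnectedSpace.paths_homotopic q q'
  have hF : Continuous fun z : I × I => ((H z : a) : ℂ) :=
    continuous_subtype_val.comp H.continuous
  have key : ∀ w, w ∉ a → W p w = W p' w := fun w hw =>
    W_eq_of_homotopy (a := a) hF (fun z => (H z).2)
      (fun t => by rw [H.apply_zero]; rfl) (fun t => by rw [H.apply_one]; rfl)
      (fun s => by rw [Path.Homotopy.source]) (fun s => by rw [Path.Homotopy.target]) hw
  rw [key x hx, key y hy, sub_self, sub_self]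

/-- A star-shaped set has no hole. -/
theorem noHole_of_star {a : Set ℂ} {c : ℂ} (h : StarConvex ℝ c a) : NoHole a := by
  intro u v p p' hp hp' x hx y hy
  have : ContractibleSpace a := h.contractibleSpace ⟨_, hp 0⟩
  exact noHole_of_simply (a := a) (inferInstanceAs (SimplyConnectedSpace a)) u v p p' hp hp' x hx
    y hy

/-- A convex set has no hole. -/
theorem noHole_of_convex {a : Set ℂ} (h : Convex ℝ a) : NoHole a := by
  intro u v p p' hp hp' x hx y hy
  exact noHole_of_star (h.starConvex (hp 0)) u v p p' hp hp' x hx y hy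

end Vale.Agent.P305.H52
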