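import Vale.Agent.P305.R2.H52.Torus
import Vale.Agent.P305.R2.H52.NoHole
import Vale.Agent.P305.H529.Ball.Final

/-! The packing number of disjointness graphs of pseudo-disc families. -/

set_option autoImplicit false

namespace Vale.Agent.P305.H52

open Vale.Agent.P305 Vale.Agent.P305.H529 Vale.Agent.P305.H287

theorem HoleFree.noHole {a : Set ℂ} (h : HoleFree a) : NoHole a := by
  rcases h with h | h
  · exact noHole_of_compl fun x hx y hy => h x hx y hy
  · exact noHole_of_simply h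

theorem Tame.good {a b : Set ℂ} (h : Tame a b) : Good a b := by
  rcases h with h | ⟨h1, h2⟩ | ⟨h1, h2⟩ | ⟨h1, h2, h3⟩
  · exact Or.inl h
  · exact Or.inr (Or.inl ⟨h1.noHole, h2⟩)
  · exact Or.inr (Or.inr (Or.inl ⟨h1.noHole, h2⟩))
  · exact Or.inr (Or.inr (Or.inr ⟨h1.noHole, h2.noHole, h3⟩))

/-- A closed walk on `ℕ` as a cyclic walk. -/
theorem exists_cyclic {V : Type} (G : SimpleGraph V) (S : Set V)
    (h : ¬ (G.induce S).IsBipartite) : ∃ (s : ℕ) (_ : NeZero s) (a : ZMod s → V), Odd s ∧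
      (∀ i, a i ∈ S) ∧ ∀ i, G.Adj (a i) (a (i + 1)) := by
  obtain ⟨s, a, hs, h0, h1, h2⟩ := exists_odd_walk G S h
  have hne : NeZero s := ⟨by rintro rfl; exact absurd hs (by decide)⟩
  refine ⟨s, hne, fun i => a i.val, hs, fun i => h1 _, fun i => ?_⟩
  have hv := ZMod.val_lt i
  by_cases hi : i.val + 1 = s
  · have e : (i + 1).val = 0 := by
      rw [ZMod.val_eq_zero]
      have : ((i.val + 1 : ℕ) : ZMod s) = 0 := by rw [hi]; exact ZMod.natCast_self s
      simpa using this
    have := h2 i.val hv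
    rw [hi, h0] at this
    beta_reduce
    rw [e]
    exact this
  · have e : (i + 1).val = i.val + 1 := by
      have h3 : i.val + 1 < s := lt_of_le_of_ne hv hi
      have : ((i.val + 1 : ℕ) : ZMod s) = i + 1 := by simp
      rw [← this, ZMod.val_natCast_of_lt h3]
    beta_reduce
    rw [e]
    exact h2 i.val hv

/-- The disjointness graph of a family of pseudo-discs has no two odd cycles which are
vertex-disjoint and non-adjacent. -/
theorem copseudo_pair {V : Type} (G : SimpleGraph V) (hG : IsCoPseudo G) (S T : Set V)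
    (hST : ∀ u ∈ S, ∀ v ∈ T, u ≠ v ∧ ¬ G.Adj u v) (hS : ¬ (G.induce S).IsBipartite)
    (hT : ¬ (G.induce T).IsBipartite) : False := by
  obtain ⟨F, hF, ht, hadj⟩ := hG
  obtain ⟨s, _, a, hs, haS, haa⟩ := exists_cyclic G S hS
  obtain ⟨t, _, b, hb, hbT, hbb⟩ := exists_cyclic G T hT
  have hmeet : ∀ i j, (F (a i) ∩ F (b j)).Nonempty := by
    intro i j
    have h1 := hST _ (haS i) _ (hbT j)
    rw [hadj _ _ h1.1, Set.not_disjoint_iff_nonempty_inter] at h1
    exact h1.2
  obtain ⟨i, j, hij⟩ := torus hs hb (fun i => F (a i)) (fun j => F (b j)) (fun i => hF _)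
    (fun j => hF _) (fun i => (hadj _ _ (haa i).ne).1 (haa i))
    (fun j => (hadj _ _ (hbb j).ne).1 (hbb j)) hmeet
  exact hij (ht _ _ (hST _ (haS i) _ (hbT j)).1 (hmeet i j)).good

theorem in_copseudo {n : ℕ} (G : SimpleGraph (Fin n)) (U : Set (Fin n))
    (hU : IsCoPseudo (G.induce U)) : oddPackingIn G U ≤ 1 :=
  in_le_one G U fun S T => copseudo_pair (G.induce U) hU S T

theorem IsCoPseudo.induce {V : Type} {G : SimpleGraph V} (h : IsCoPseudo G) (S : Set V) :
    IsCoPseudo (G.induce S) := by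
  obtain ⟨F, h1, h2, h3⟩ := h
  exact ⟨fun v => F v, fun v => h1 v, fun u v huv => h2 u v fun e => huv (Subtype.ext e),
    fun u v huv => h3 u v fun e => huv (Subtype.ext e)⟩

/-- One bipartite call and one search for graphs whose components are disjointness graphs of
pseudo-disc families. -/
theorem copseudo_reduction (T : ℕ → ℕ → ℕ)
    (hT : ∀ n n' m m', n ≤ n' → m ≤ m' → T n m ≤ T n' m')
    (hP : ∃ P, Solves P (fun _ G => G.IsBipartite) (fun n G => T n G.edgeSet.ncard)) :
    ∃ P C, Solves P (fun _ G => ∀ K : G.ConnectedComponent, IsCoPseudo (G.induce K.supp))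
      (fun n G => C * (T (2 * n) (2 * G.edgeSet.ncard) +
        (Nat.log 2 n + 1) * (n + G.edgeSet.ncard + 1))) := by
  obtain ⟨P, C, h⟩ := one_reduction T hT hP
  exact ⟨P, C, h.mono (fun n G hG K => in_copseudo G K.supp (hG K)) fun _ _ _ => le_rfl⟩

/-- The same after the deletion of a vertex set. -/
theorem copseudo_near (hB : AlmostLinear fun _ G => G.IsBipartite) (κ : ℕ → ℕ)
    (hκ : ∀ ε : ℝ, 0 < ε → ∃ c : ℝ, ∀ N : ℕ, (κ N : ℝ) ≤ c * ((N : ℝ) + 1) ^ ε) :
    AlmostLinear fun n G => ∃ X : Set (Fin n), inducedMatchingAt G X ≤ κ (n + G.edgeSet.ncard) ∧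
      ∀ K : G.ConnectedComponent, (G.induce (K.supp \ X)).IsBipartite ∨
        IsCoPseudo (G.induce (K.supp \ X)) := by
  obtain ⟨P, T, hP, hT⟩ := comp_near_almostLinear hB κ hκ
  refine ⟨P, T, hP.mono ?_ fun _ _ _ => le_rfl, hT⟩
  rintro n G ⟨X, hX, h⟩
  refine ⟨X, hX, fun K => ?_⟩
  rcases h K with h | h
  · rw [in_bip G _ h]
    exact Nat.zero_le _
  · exact in_copseudo G _ h

end Vale.Agent.P305.H52
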