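import Mathlib.Analysis.Complex.CoveringMap
import Mathlib.Topology.Homotopy.Lifting
import Mathlib.Topology.Connected.PathConnected
import Mathlib.AlgebraicTopology.FundamentalGroupoid.SimplyConnected

/-! Variation of the logarithm along a path in the plane. -/

set_option autoImplicit false

open Complex unitInterval

namespace Vale.Agent.P305.H52

/-- `z` is the variation of the logarithm along `f` -/
def VL (f : I → ℂ) (z : ℂ) : Prop :=
  ∃ Γ : I → ℂ, Continuous Γ ∧ (∀ t, exp (Γ t) = f t) ∧ z = Γ 1 - Γ 0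

theorem VL.ex {f : I → ℂ} (hf : Continuous f) (h0 : ∀ t, f t ≠ 0) : ∃ z, VL f z := by
  let γ : C(I, {z : ℂ // z ≠ 0}) := ⟨fun t => ⟨f t, h0 t⟩, hf.subtype_mk _⟩
  have cov := Complex.isCoveringMap_exp
  obtain ⟨Γ, h1, _⟩ := cov.exists_path_lifts γ (log (f 0)) (Subtype.ext (exp_log (h0 0)).symm)
  refine ⟨Γ 1 - Γ 0, Γ, Γ.continuous, fun t => ?_, rfl⟩
  exact congrArg Subtype.val (congrFun h1 t)

theorem VL.uniq {f : I → ℂ} {z w : ℂ} (hz : VL f z) (hw : VL f w) : z = w := by
  obtain ⟨Γ, c1, e1, rfl⟩ := hz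
  obtain ⟨Γ', c2, e2, rfl⟩ := hw
  have cov := Complex.isCoveringMap_exp
  have key : Γ = fun t => Γ' t + (Γ 0 - Γ' 0) := by
    refine cov.eq_of_comp_eq c1 (by fun_prop) ?_ 0 (by ring)
    funext t
    apply Subtype.ext
    simp only [Function.comp_apply]
    rw [exp_add, exp_sub, e1, e2, e1, e2, div_self, mul_one]
    rw [← e2]; exact exp_ne_zero _
  have h1 : Γ 1 = Γ' 1 + (Γ 0 - Γ' 0) := congrFun key 1
  rw [h1]; ring

theorem VL.expEq {f : I → ℂ} {z : ℂ} (hz : VL f z) : exp z = f 1 / f 0 := by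
  obtain ⟨Γ, _, e1, rfl⟩ := hz
  rw [exp_sub, e1, e1]

theorem VL.neg {f : I → ℂ} {z : ℂ} (hz : VL f z) : VL (fun t => - f t) z := by
  obtain ⟨Γ, c1, e1, rfl⟩ := hz
  refine ⟨fun t => Γ t + Real.pi * Complex.I, by fun_prop, fun t => ?_, by ring⟩
  rw [exp_add, exp_pi_mul_I, e1]; ring

theorem VL.const {c : ℂ} (hc : c ≠ 0) : VL (fun _ => c) 0 :=
  ⟨fun _ => log c, continuous_const, fun _ => exp_log hc, by ring⟩

/-- the variations around a square -/
theorem VL.square {F : I × I → ℂ} (hF : Continuous F) (h0 : ∀ u, F u ≠ 0) {a b c d : ℂ}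
    (ha : VL (fun s => F (s, 0)) a) (hb : VL (fun t => F (1, t)) b)
    (hc : VL (fun s => F (s, 1)) c) (hd : VL (fun t => F (0, t)) d) : a + b = c + d := by
  have cov := Complex.isCoveringMap_exp
  let H : C(I × I, {z : ℂ // z ≠ 0}) := ⟨fun u => ⟨F u, h0 u⟩, hF.subtype_mk _⟩
  let γ : C(I, {z : ℂ // z ≠ 0}) := H.comp ⟨fun t => (0, t), by fun_prop⟩
  obtain ⟨Γ, h1, _⟩ := cov.exists_path_lifts γ (log (F (0, 0)))
    (Subtype.ext (exp_log (h0 (0, 0))).symm)
  have H0 : ∀ t, H (0, t) = (fun z : ℂ => (⟨_, z.exp_ne_zero⟩ : {z : ℂ // z ≠ 0})) (Γ t) :=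
    fun t => (congrFun h1 t).symm
  let G : C(I × I, ℂ) := cov.liftHomotopy H Γ H0
  have hG : ∀ u, exp (G u) = F u := fun u =>
    congrArg Subtype.val (congrFun (cov.liftHomotopy_lifts H Γ H0) u)
  have e1 : a = G (1, 0) - G (0, 0) :=
    ha.uniq ⟨fun s => G (s, 0), by fun_prop, fun s => hG _, rfl⟩
  have e2 : b = G (1, 1) - G (1, 0) :=
    hb.uniq ⟨fun s => G (1, s), by fun_prop, fun s => hG _, rfl⟩
  have e3 : c = G (1, 1) - G (0, 1) :=
    hc.uniq ⟨fun s => G (s, 1), by fun_prop, fun s => hG _, rfl⟩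
  have e4 : d = G (0, 1) - G (0, 0) :=
    hd.uniq ⟨fun s => G (0, s), by fun_prop, fun s => hG _, rfl⟩
  rw [e1, e2, e3, e4]; ring

open Classical in
/-- variation of the logarithm of `p - x` -/
noncomputable def W (p : I → ℂ) (x : ℂ) : ℂ :=
  if h : ∃ z, VL (fun t => p t - x) z then h.choose else 0

theorem W_spec {p : I → ℂ} {x : ℂ} (hp : Continuous p) (hx : ∀ t, p t ≠ x) :
    VL (fun t => p t - x) (W p x) := by
  have h : ∃ z, VL (fun t => p t - x) z := VL.ex (by fun_prop) fun t => sub_ne_zero.2 (hx t)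
  rw [W, dif_pos h]
  exact h.choose_spec

theorem W_spec' {p : I → ℂ} {x : ℂ} (hp : Continuous p) (hx : ∀ t, p t ≠ x) :
    VL (fun t => x - p t) (W p x) := by
  have h := (W_spec hp hx).neg
  simpa only [neg_sub] using h

theorem exp_W {p : I → ℂ} {x : ℂ} (hp : Continuous p) (hx : ∀ t, p t ≠ x) :
    exp (W p x) = (p 1 - x) / (p 0 - x) := (W_spec hp hx).expEq

/-- two disjoint paths -/
theorem W_square {p r : I → ℂ} (hp : Continuous p) (hr : Continuous r)
    (hd : ∀ s t, p s ≠ r t) : W p (r 0) + W r (p 1) = W p (r 1) + W r (p 0) := by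
  refine VL.square (F := fun u => p u.1 - r u.2) (by fun_prop)
    (fun u => sub_ne_zero.2 (hd _ _)) ?_ ?_ ?_ ?_
  · exact W_spec hp fun t => hd t 0
  · exact W_spec' hr fun t => (hd 1 t).symm
  · exact W_spec hp fun t => hd t 1
  · exact W_spec' hr fun t => (hd 0 t).symm

theorem W_trans {u v w x : ℂ} (p : Path u v) (r : Path v w) (hp : ∀ t, p t ≠ x)
    (hr : ∀ t, r t ≠ x) : W (p.trans r) x = W p x + W r x := by
  have hx : ∀ t, (p.trans r) t ≠ x := by
    intro t
    rw [Path.trans_apply]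
    split_ifs
    · exact hp _
    · exact hr _
  obtain ⟨Γ, c, e, h⟩ := W_spec (p.trans r).continuous hx
  let g1 : I → I := fun s => ⟨(s : ℝ) / 2, by
    have := s.2.1; have := s.2.2; constructor <;> linarith⟩
  let g2 : I → I := fun s => ⟨(1 + (s : ℝ)) / 2, by
    have := s.2.1; have := s.2.2; constructor <;> linarith⟩
  have c1 : Continuous g1 := by
    apply Continuous.subtype_mk; fun_prop
  have c2 : Continuous g2 := by
    apply Continuous.subtype_mk; fun_prop
  have v1 : VL (fun t => p t - x) (Γ (g1 1) - Γ (g1 0)) := by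
    refine ⟨fun s => Γ (g1 s), c.comp c1, fun s => ?_, rfl⟩
    rw [e]
    show (p.trans r) (g1 s) - x = p s - x
    rw [Path.trans_apply, dif_pos (show ((g1 s : I) : ℝ) ≤ 1 / 2 by
      have := s.2.2; simp only [g1]; linarith)]
    congr 2
    apply Subtype.ext
    simp only [g1]; ring
  have v2 : VL (fun t => r t - x) (Γ (g2 1) - Γ (g2 0)) := by
    refine ⟨fun s => Γ (g2 s), c.comp c2, fun s => ?_, rfl⟩
    rw [e]
    show (p.trans r) (g2 s) - x = r s - x
    rw [Path.trans_apply]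
    split_ifs with h
    · have hs : s = 0 := by
        apply Subtype.ext
        have := s.2.1
        simp only [g2] at h
        simp only [Set.Icc.coe_zero]
        linarith
      subst hs
      rw [r.source]
      have : (⟨2 * ((g2 0 : I) : ℝ), (unitInterval.mul_pos_mem_iff zero_lt_two).2
          ⟨(g2 0).2.1, h⟩⟩ : I) = 1 := by
        apply Subtype.ext
        simp only [g2, Set.Icc.coe_zero, Set.Icc.coe_one]; norm_num
      rw [this, p.target]
    · congr 2
      apply Subtype.ext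
      simp only [g2]; ring
  rw [h, (W_spec p.continuous hp).uniq v1, (W_spec r.continuous hr).uniq v2]
  have h1 : g1 1 = g2 0 := by
    apply Subtype.ext
    simp only [g1, g2, Set.Icc.coe_zero, Set.Icc.coe_one]; norm_num
  have h2 : g1 0 = 0 := by
    apply Subtype.ext
    simp only [g1, Set.Icc.coe_zero]; norm_num
  have h3 : g2 1 = 1 := by
    apply Subtype.ext
    simp only [g2, Set.Icc.coe_one]; norm_num
  rw [h1, h2, h3]; ring

/-- Two paths in `a` with the same ends turn equally often around all points outside `a`. -/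
def NoHole (a : Set ℂ) : Prop :=
  ∀ (u v : ℂ) (p p' : Path u v), (∀ t, p t ∈ a) → (∀ t, p' t ∈ a) →
    ∀ x, x ∉ a → ∀ y, y ∉ a → W p x - W p' x = W p y - W p' y

end Vale.Agent.P305.H52
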