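import Mathlib.Analysis.Complex.Basic
import Mathlib.Topology.Connected.PathConnected
import Mathlib.AlgebraicTopology.FundamentalGroupoid.SimplyConnected
import Mathlib.Combinatorics.SimpleGraph.Basic
import Mathlib.Topology.ContinuousMap.Basic
import Mathlib.Topology.UnitInterval

/-! Disjointness graphs of pseudo-disc families of the plane. -/

set_option autoImplicit false

namespace Vale.Agent.P305.H52

/-- `s` is path-connected, or empty -/
def Jo (s : Set ℂ) : Prop := ∀ x ∈ s, ∀ y ∈ s, JoinedIn s x y

/-- `a` has no holes: the complement of `a` is path-connected or empty, or `a` is simply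
connected -/
def HoleFree (a : Set ℂ) : Prop := Jo aᶜ ∨ IsSimplyConnected a

/-- any two points of `a` outside `b`, and any two points of `b` outside `a`, can be joined, in `a`
and in `b`, by two paths which do not meet -/
def NonCross (a b : Set ℂ) : Prop :=
  ∀ x ∈ a \ b, ∀ y ∈ a \ b, ∀ z ∈ b \ a, ∀ w ∈ b \ a,
    ∃ (γ : Path x y) (δ : Path z w), (∀ t, γ t ∈ a) ∧ (∀ t, δ t ∈ b) ∧ ∀ t u, γ t ≠ δ u

/-- The condition on a pair of intersecting sets: both differences are path-connected or empty; or
one of the sets has no holes, and its difference with the other set is path-connected or empty; or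
neither has holes, and they do not cross. -/
def Tame (a b : Set ℂ) : Prop :=
  (Jo (a \ b) ∧ Jo (b \ a)) ∨ (HoleFree a ∧ Jo (a \ b)) ∨ (HoleFree b ∧ Jo (b \ a)) ∨
    (HoleFree a ∧ HoleFree b ∧ NonCross a b)

/-- `G` is the disjointness graph of a family of pseudo-discs: there are path-connected sets of the
plane, one for every vertex, any two of which that meet are `Tame`, such that two different vertices
are adjacent in `G` iff their sets are disjoint. -/
def IsCoPseudo {V : Type} (G : SimpleGraph V) : Prop :=
  ∃ S : V → Set ℂ, (∀ v, Jo (S v)) ∧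
    (∀ u v, u ≠ v → (S u ∩ S v).Nonempty → Tame (S u) (S v)) ∧
    ∀ u v, u ≠ v → (G.Adj u v ↔ Disjoint (S u) (S v))

/-- the graph of a continuous function on `[0, 1]`, a simple arc of the plane -/
def curve (f : C(unitInterval, ℝ)) : Set ℂ := Set.range fun t : unitInterval => (⟨t, f t⟩ : ℂ)

/-- `G` is the disjointness graph of a family of simple arcs, even graphs of continuous functions on
`[0, 1]`. -/
def IsCoCurve {V : Type} (G : SimpleGraph V) : Prop :=
  ∃ f : V → C(unitInterval, ℝ), ∀ u v, u ≠ v → (G.Adj u v ↔ Disjoint (curve (f u)) (curve (f v)))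

end Vale.Agent.P305.H52
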