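import Vale.Agent.P305.Bdl.B1
import Vale.Agent.P305.R2.H52.Class
import Mathlib.Analysis.Complex.Basic
import Mathlib.Topology.ContinuousMap.Basic

/-! Comparability graphs are disjointness graphs of curves of the plane. -/

set_option autoImplicit false

open unitInterval

namespace Vale.Agent.P305.H52

open Vale.Agent.P305

theorem disjoint_curve (f g : C(I, ℝ)) : Disjoint (curve f) (curve g) ↔ ∀ t, f t ≠ g t := by
  rw [Set.disjoint_left]
  constructor
  · intro h t e
    refine h ⟨t, rfl⟩ ⟨t, ?_⟩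
    simp only [e]
  · rintro h _ ⟨t, rfl⟩ ⟨s, e⟩
    have h1 := congrArg Complex.re e
    have h2 := congrArg Complex.im e
    simp only at h1 h2
    have h3 : s = t := Subtype.ext h1
    subst h3
    exact h s h2.symm

/-- two incomparable elements get the same height -/
theorem exists_height {V : Type} [Fintype V] (r : V → V → Prop) [IsStrictOrder V r] (u v : V) :
    ∃ g : V → ℕ, (∀ x y, r x y → g x < g y) ∧ (¬ r u v → ¬ r v u → g u = g v) := by
  classical
  have tr : ∀ {a b c}, r a b → r b c → r a c := fun h1 h2 => _root_.trans h1 h2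
  have ir : ∀ a, ¬ r a a := fun a => irrefl a
  obtain ⟨L, hL⟩ : ∃ L : V → V → Prop, ∀ a b, L a b ↔ a = b ∨ r a b := ⟨_, fun _ _ => Iff.rfl⟩
  have Lr : ∀ a, L a a := fun a => (hL a a).2 (Or.inl rfl)
  have Lt : ∀ a b c, L a b → L b c → L a c := by
    intro a b c h1 h2
    rw [hL] at *
    rcases h1 with rfl | h1
    · exact h2
    · rcases h2 with rfl | h2
      · exact Or.inr h1
      · exact Or.inr (tr h1 h2)
  have Lrr : ∀ a b c d, L a b → r b c → L c d → r a d := by
    intro a b c d h1 h2 h3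
    rw [hL] at *
    rcases h1 with rfl | h1 <;> rcases h3 with rfl | h3
    · exact h2
    · exact tr h2 h3
    · exact tr h1 h2
    · exact tr h1 (tr h2 h3)
  have key : ∀ le : V → V → Prop, (∀ a, le a a) → (∀ a b c, le a b → le b c → le a c) →
      (∀ a b, r a b → le a b ∧ ¬ le b a) → ∀ a b, r a b →
      (Finset.univ.filter fun z => le z a).card < (Finset.univ.filter fun z => le z b).card := by
    intro le h1 h2 h3 a b hab
    refine Finset.card_lt_card (Finset.ssubset_iff_subset_ne.2 ⟨fun z hz => ?_, fun e => ?_⟩)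
    · simp only [Finset.mem_filter, Finset.mem_univ, true_and] at *
      exact h2 _ _ _ hz (h3 a b hab).1
    · have : b ∈ Finset.univ.filter fun z => le z a := by
        rw [e]
        simp [h1]
      simp only [Finset.mem_filter, Finset.mem_univ, true_and] at this
      exact (h3 a b hab).2 this
  by_cases h : r u v ∨ r v u
  · refine ⟨fun a => (Finset.univ.filter fun z => L z a).card, key L Lr Lt ?_, ?_⟩
    · intro a b hab
      exact ⟨(hL a b).2 (Or.inr hab), fun hba => ir a (Lrr a a b a (Lr a) hab hba)⟩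
    · intro h1 h2
      exact absurd h (not_or.2 ⟨h1, h2⟩)
  · push Not at h
    obtain ⟨le, hle⟩ : ∃ le : V → V → Prop,
        ∀ x y, le x y ↔ L x y ∨ (L x u ∧ L v y) ∨ (L x v ∧ L u y) := ⟨_, fun _ _ => Iff.rfl⟩
    have le_refl : ∀ a, le a a := fun a => (hle a a).2 (Or.inl (Lr a))
    have le_tr : ∀ a b c, le a b → le b c → le a c := by
      intro a b c h1 h2
      rw [hle] at *
      rcases h1 with h1 | ⟨h1, h1'⟩ | ⟨h1, h1'⟩ <;> rcases h2 with h2 | ⟨h2, h2'⟩ | ⟨h2, h2'⟩
      · exact Or.inl (Lt _ _ _ h1 h2)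
      · exact Or.inr (Or.inl ⟨Lt _ _ _ h1 h2, h2'⟩)
      · exact Or.inr (Or.inr ⟨Lt _ _ _ h1 h2, h2'⟩)
      · exact Or.inr (Or.inl ⟨h1, Lt _ _ _ h1' h2⟩)
      · exact Or.inr (Or.inl ⟨h1, h2'⟩)
      · exact Or.inl (Lt _ _ _ h1 h2')
      · exact Or.inr (Or.inr ⟨h1, Lt _ _ _ h1' h2⟩)
      · exact Or.inl (Lt _ _ _ h1 h2')
      · exact Or.inr (Or.inr ⟨h1, h2'⟩)
    have le_r : ∀ a b, r a b → le a b ∧ ¬ le b a := by
      intro a b hab
      rw [hle, hle]
      refine ⟨Or.inl ((hL a b).2 (Or.inr hab)), ?_⟩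
      rintro (h1 | ⟨h1, h1'⟩ | ⟨h1, h1'⟩)
      · exact ir a (Lrr a a b a (Lr a) hab h1)
      · exact h.2 (Lrr _ _ _ _ h1' hab h1)
      · exact h.1 (Lrr _ _ _ _ h1' hab h1)
    refine ⟨fun a => (Finset.univ.filter fun z => le z a).card, key le le_refl le_tr le_r, ?_⟩
    intro _ _
    have huv : le u v := (hle u v).2 (Or.inr (Or.inl ⟨Lr u, Lr v⟩))
    have hvu : le v u := (hle v u).2 (Or.inr (Or.inr ⟨Lr v, Lr u⟩))
    have : (Finset.univ.filter fun z => le z u) = Finset.univ.filter fun z => le z v := by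
      ext z
      simp only [Finset.mem_filter, Finset.mem_univ, true_and]
      exact ⟨fun hz => le_tr _ _ _ hz huv, fun hz => le_tr _ _ _ hz hvu⟩
    simp only [this]

/-- Comparability graphs are disjointness graphs of simple arcs. -/
theorem cocurve_of_order {V : Type} [Fintype V] (G : SimpleGraph V) (r : V → V → Prop)
    [IsStrictOrder V r] (hr : ∀ u v, G.Adj u v ↔ r u v ∨ r v u) : IsCoCurve G := by
  classical
  have : Infinite I := (Set.Icc_infinite (zero_lt_one (α := ℝ))).to_subtype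
  choose g hg hg' using fun p : V × V => exists_height r p.1 p.2
  let e := Fintype.equivFin (V × V)
  let τ : V × V → I := fun p => Infinite.natEmbedding I (e p)
  have hτ : Function.Injective τ := fun p p' h =>
    e.injective (Fin.ext ((Infinite.natEmbedding I).injective h))
  let w : V × V → I → ℝ := fun p t => ∏ q ∈ Finset.univ.erase p, |(t : ℝ) - τ q|
  have hw0 : ∀ p t, 0 ≤ w p t := fun p t => Finset.prod_nonneg fun q _ => abs_nonneg _
  have hwp : ∀ p, 0 < w p (τ p) := by
    intro p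
    refine Finset.prod_pos fun q hq => abs_pos.2 (sub_ne_zero.2 fun h => ?_)
    exact (Finset.mem_erase.1 hq).1 (hτ (Subtype.ext h)).symm
  have hwq : ∀ p q, q ≠ p → w p (τ q) = 0 := by
    intro p q hq
    refine Finset.prod_eq_zero (Finset.mem_erase.2 ⟨hq, Finset.mem_univ q⟩) ?_
    rw [sub_self, abs_zero]
  have hw : ∀ (t : I) (p₀ : V × V), ∃ p, 0 < w p t := by
    intro t p₀
    by_cases h : ∃ q, t = τ q
    · obtain ⟨q, rfl⟩ := h
      exact ⟨q, hwp q⟩
    · push Not at h
      refine ⟨p₀, Finset.prod_pos fun q _ => abs_pos.2 (sub_ne_zero.2 fun h' => ?_)⟩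
      exact h q (Subtype.ext h')
  have hc : ∀ p, Continuous (w p) := by
    intro p
    refine continuous_finsetProd _ fun q _ => ?_
    fun_prop
  let f : V → C(I, ℝ) := fun x => ⟨fun t => ∑ p, w p t * g p x,
    continuous_finsetSum _ fun p _ => (hc p).mul continuous_const⟩
  have hlt : ∀ x y, r x y → ∀ t, f x t < f y t := by
    intro x y hxy t
    obtain ⟨p, hp⟩ := hw t (x, y)
    refine Finset.sum_lt_sum (fun q _ => ?_) ⟨p, Finset.mem_univ p, ?_⟩
    · exact mul_le_mul_of_nonneg_left (by exact_mod_cast (hg q x y hxy).le) (hw0 q t)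
    · exact mul_lt_mul_of_pos_left (by exact_mod_cast hg p x y hxy) hp
  refine ⟨f, fun u v huv => ?_⟩
  rw [disjoint_curve, hr]
  constructor
  · rintro (h | h) t
    · exact (hlt u v h t).ne
    · exact (hlt v u h t).ne'
  · intro h
    by_contra hn
    push Not at hn
    refine h (τ (u, v)) ?_
    have : ∀ x, f x (τ (u, v)) = w (u, v) (τ (u, v)) * g (u, v) x := by
      intro x
      refine Finset.sum_eq_single_of_mem (u, v) (Finset.mem_univ _) fun q _ hq => ?_
      rw [hwq q (u, v) hq.symm, zero_mul]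
    rw [this, this, hg' (u, v) hn.1 hn.2]

theorem cocurve_of_comp3 {n : ℕ} (G : SimpleGraph (Fin n)) (h : Comp3 n G) : IsCoCurve G := by
  obtain ⟨⟨r, hr, hadj, -⟩, -⟩ := h
  exact cocurve_of_order G r hadj

/-- Almost-linear time on disjointness graphs of simple arcs iff on all graphs. -/
theorem almostLinear_cocurve :
    AlmostLinear (fun _ G => IsCoCurve G) ↔ AlmostLinear fun _ _ => True := by
  constructor
  · rintro ⟨P, T, hP, hT⟩
    exact almostLinear_comp3.1 ⟨P, T, hP.mono (fun _ G h => cocurve_of_comp3 G h)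
      fun _ _ _ => le_rfl, hT⟩
  · rintro ⟨P, T, hP, hT⟩
    exact ⟨P, T, hP.mono (fun _ _ _ => trivial) fun _ _ _ => le_rfl, hT⟩

end Vale.Agent.P305.H52
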