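import Vale.Agent.P305.R2.H52.Class
import Vale.Agent.P305.R2.H457.GeoDefs
import Vale.Agent.P305.R2.H862.Defs
import Vale.Agent.P305.R2.H227.Defs

/-! The plane classes and the towers over them: definitions. -/

set_option autoImplicit false

namespace Vale.Agent.P305.H52

open Vale.Agent.P305.R2.H457 (IsCoGeo)
open Vale.Agent.P305.H227 (IsCoPlanarBall IsCoNonPiercing)
open Vale.Agent.P305.R2.H862 (IsCoAngle)

/-- `G` is bipartite, or the disjointness graph of a family of pseudo-discs, or of discs of a length
metric on a plane set, of discs of the sphere, of discs of the metric of a planar graph with edge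
lengths, or of non-piercing connected subgraphs of a planar graph. -/
def IsPlane {V : Type} (G : SimpleGraph V) : Prop :=
  G.IsBipartite ∨ IsCoPseudo G ∨ IsCoGeo G ∨ IsCoAngle G ∨ IsCoPlanarBall G ∨ IsCoNonPiercing G

end Vale.Agent.P305.H52

namespace Vale.Agent.P305.H273

open Vale.Agent.P305.H52

/-- Any two disjoint edges of `I` are joined by an edge: the largest induced matching of `I` has at
most one edge, the complement of `I` has no induced cycle of length four. Examples: complements of
interval graphs, of chordal graphs. -/
def NoTwoEdges {V : Type} (I : SimpleGraph V) : Prop :=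
  ∀ a b c e, I.Adj a b → I.Adj c e → a = c ∨ a = e ∨ b = c ∨ b = e ∨
    I.Adj a c ∨ I.Adj a e ∨ I.Adj b c ∨ I.Adj b e

/-- `G` is the union of a plane graph of discs `H` (see `IsPlane`) and of `d` graphs without two
independent edges. For instance, the vertices of `G` are the products of pseudo-discs of the plane
with boxes of `d`-dimensional space, adjacent iff disjoint. -/
def IsCoTower (d : ℕ) {V : Type} (G : SimpleGraph V) : Prop :=
  ∃ (H : SimpleGraph V) (I : Fin d → SimpleGraph V), IsPlane H ∧ (∀ j, NoTwoEdges (I j)) ∧
    ∀ a b, G.Adj a b ↔ H.Adj a b ∨ ∃ j, (I j).Adj a b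

end Vale.Agent.P305.H273
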