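import Vale.Agent.P305.R2.H52.Pair
import Vale.Agent.P305.R2.H52.PlaneDefs
import Vale.Agent.P305.R2.H457.Geo
import Vale.Agent.P305.R2.H862.Pair
import Vale.Agent.P305.R2.H227.NonP
import Vale.Agent.P305.R2.H227.Metric

/-! Time bounds for graphs whose components are disjointness graphs of pseudo-discs or of discs of
plane or spherical metrics. -/

set_option autoImplicit false

namespace Vale.Agent.P305.H52

open Vale.Agent.P305 Vale.Agent.P305.H529 Vale.Agent.P305.H287 Vale.Agent.P305.R2.H457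
open Vale.Agent.P305.H227 (IsCoPlanarBall IsCoNonPiercing)
open Vale.Agent.P305.R2.H862 (IsCoAngle)

theorem plane_pair {V : Type} [Finite V] (G : SimpleGraph V) (hG : IsPlane G) (S T : Set V)
    (hST : ∀ u ∈ S, ∀ v ∈ T, u ≠ v ∧ ¬ G.Adj u v) (hS : ¬ (G.induce S).IsBipartite)
    (hT : ¬ (G.induce T).IsBipartite) : False := by
  have := Fintype.ofFinite V
  rcases hG with h | h | h | h | h | h
  · obtain ⟨col⟩ := h
    exact hS ⟨SimpleGraph.Coloring.mk (fun v => col v) (fun {u v} huv => col.valid huv)⟩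
  · exact copseudo_pair G h S T hST hS hT
  · exact cogeo_pair G h S T hST hS hT
  · exact Vale.Agent.P305.R2.H862.angle_pair G h S T hST hS hT
  · exact Vale.Agent.P305.H227.ball_pair G h S T hST hS hT
  · exact Vale.Agent.P305.H227.piercing_pair G h S T hST hS hT

theorem in_plane {n : ℕ} (G : SimpleGraph (Fin n)) (U : Set (Fin n))
    (hU : IsPlane (G.induce U)) : oddPackingIn G U ≤ 1 :=
  in_le_one G U fun S T => plane_pair (G.induce U) hU S T

theorem plane_reduction (T : ℕ → ℕ → ℕ)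
    (hT : ∀ n n' m m', n ≤ n' → m ≤ m' → T n m ≤ T n' m')
    (hP : ∃ P, Solves P (fun _ G => G.IsBipartite) (fun n G => T n G.edgeSet.ncard)) :
    ∃ P C, Solves P (fun _ G => ∀ K : G.ConnectedComponent, IsPlane (G.induce K.supp))
      (fun n G => C * (T (2 * n) (2 * G.edgeSet.ncard) +
        (Nat.log 2 n + 1) * (n + G.edgeSet.ncard + 1))) := by
  obtain ⟨P, C, h⟩ := one_reduction T hT hP
  exact ⟨P, C, h.mono (fun n G hG K => in_plane G K.supp (hG K)) fun _ _ _ => le_rfl⟩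

theorem plane_near (hB : AlmostLinear fun _ G => G.IsBipartite) (κ : ℕ → ℕ)
    (hκ : ∀ ε : ℝ, 0 < ε → ∃ c : ℝ, ∀ N : ℕ, (κ N : ℝ) ≤ c * ((N : ℝ) + 1) ^ ε) :
    AlmostLinear fun n G => ∃ X : Set (Fin n), inducedMatchingAt G X ≤ κ (n + G.edgeSet.ncard) ∧
      ∀ K : G.ConnectedComponent, IsPlane (G.induce (K.supp \ X)) := by
  obtain ⟨P, T, hP, hT⟩ := comp_near_almostLinear hB κ hκ
  refine ⟨P, T, hP.mono ?_ fun _ _ _ => le_rfl, hT⟩
  rintro n G ⟨X, hX, h⟩
  exact ⟨X, hX, fun K => in_plane G _ (h K)⟩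

end Vale.Agent.P305.H52
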