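import Vale.Agent.P305.R2.H52.Ang
import Vale.Agent.P305.R2.H52.Class
import Vale.Agent.P305.R2.H136.DoubleSum

/-! Two odd cyclic families of plane sets, all crossing each other: some pair is bad. -/

set_option autoImplicit false

open Complex unitInterval

namespace Vale.Agent.P305.H52


/-- the condition on a pair of sets -/
def Good (a b : Set ℂ) : Prop :=
  (Jo (a \ b) ∧ Jo (b \ a)) ∨ (NoHole a ∧ Jo (a \ b)) ∨ (NoHole b ∧ Jo (b \ a)) ∨
    (NoHole a ∧ NoHole b ∧ NonCross a b)

theorem core {w e s n : ℂ} (ν γ : Path w e) (μ δ : Path s n)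
    (ha : W ν s - W γ s = W ν n - W γ n) (hb : W μ e - W δ e = W μ w - W δ w)
    (hd : ∀ x y, γ x ≠ δ y) : W ν s - W ν n + W μ e - W μ w = 0 := by
  have h := W_square γ.continuous δ.continuous hd
  rw [γ.source, γ.target, δ.source, δ.target] at h
  linear_combination h + ha + hb

theorem Good.zero {a b : Set ℂ} (hg : Good a b) {w e s n : ℂ} (ν : Path w e) (μ : Path s n)
    (hν : ∀ t, ν t ∈ a) (hμ : ∀ t, μ t ∈ b) (hs : s ∉ a) (hn : n ∉ a) (hw : w ∉ b)
    (he : e ∉ b) : W ν s - W ν n + W μ e - W μ w = 0 := by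
  have wa : w ∈ a := by simpa using hν 0
  have ea : e ∈ a := by simpa using hν 1
  have sb : s ∈ b := by simpa using hμ 0
  have nb : n ∈ b := by simpa using hμ 1
  rcases hg with ⟨h1, h2⟩ | ⟨h1, h2⟩ | ⟨h1, h2⟩ | ⟨h1, h2, h3⟩
  · obtain ⟨γ, hγ⟩ := h1 w ⟨wa, hw⟩ e ⟨ea, he⟩
    obtain ⟨δ, hδ⟩ := h2 s ⟨sb, hs⟩ n ⟨nb, hn⟩
    have k1 := W_square γ.continuous μ.continuous fun x y hxy => (hγ x).2 (hxy ▸ hμ y)
    have k2 := W_square ν.continuous δ.continuous fun x y hxy => (hδ y).2 (hxy ▸ hν x)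
    have k3 := W_square γ.continuous δ.continuous fun x y hxy => (hδ y).2 (hxy ▸ (hγ x).1)
    rw [γ.source, γ.target, μ.source, μ.target] at k1
    rw [ν.source, ν.target, δ.source, δ.target] at k2
    rw [γ.source, γ.target, δ.source, δ.target] at k3
    linear_combination k1 + k2 - k3
  · obtain ⟨γ, hγ⟩ := h2 w ⟨wa, hw⟩ e ⟨ea, he⟩
    refine core ν γ μ μ (h1 w e ν γ hν (fun t => (hγ t).1) s hs n hn) (by ring) ?_
    intro x y hxy
    exact (hγ x).2 (hxy ▸ hμ y)
  · obtain ⟨γ, hγ⟩ := h2 s ⟨sb, hs⟩ n ⟨nb, hn⟩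
    refine core ν ν μ γ (by ring) (h1 s n μ γ hμ (fun t => (hγ t).1) e he w hw) ?_
    intro x y hxy
    exact (hγ y).2 (hxy ▸ hν x)
  · obtain ⟨γ, δ, hγ, hδ, hd⟩ := h3 w ⟨wa, hw⟩ e ⟨ea, he⟩ s ⟨sb, hs⟩ n ⟨nb, hn⟩
    exact core ν γ μ δ (h1 w e ν γ hν hγ s hs n hn) (h2 s n μ δ hμ hδ e he w hw) hd

/-- The torus theorem. -/
theorem torus {s t : ℕ} [NeZero s] [NeZero t] (hs : Odd s) (ht : Odd t)
    (A : ZMod s → Set ℂ) (B : ZMod t → Set ℂ) (pA : ∀ i, Jo (A i))
    (pB : ∀ j, Jo (B j)) (dA : ∀ i, Disjoint (A i) (A (i + 1)))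
    (dB : ∀ j, Disjoint (B j) (B (j + 1))) (hAB : ∀ i j, (A i ∩ B j).Nonempty) :
    ∃ i j, ¬ Good (A i) (B j) := by
  by_contra hcon
  push Not at hcon
  choose q hqA hqB using hAB
  have hex : ∀ i j, ∃ p : Path (q i j) (q i (j + 1)), ∀ u, p u ∈ A i := fun i j =>
    pA i _ (hqA i j) _ (hqA i (j + 1))
  have vex : ∀ i j, ∃ p : Path (q i j) (q (i + 1) j), ∀ u, p u ∈ B j := fun i j =>
    pB j _ (hqB i j) _ (hqB (i + 1) j)
  choose h hh using hex
  choose v hv using vex
  have dA' : ∀ i x, x ∈ A i → x ∉ A (i + 1) := fun i x h1 h2 =>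
    Set.disjoint_left.1 (dA i) h1 h2
  have dA'' : ∀ i x, x ∈ A (i + 1) → x ∉ A i := fun i x h1 h2 =>
    Set.disjoint_left.1 (dA i) h2 h1
  have dB' : ∀ j x, x ∈ B j → x ∉ B (j + 1) := fun j x h1 h2 =>
    Set.disjoint_left.1 (dB j) h1 h2
  have dB'' : ∀ j x, x ∈ B (j + 1) → x ∉ B j := fun j x h1 h2 =>
    Set.disjoint_left.1 (dB j) h2 h1
  -- points outside the neighbours
  have oA : ∀ i j, q (i + 1) j ∉ A i := fun i j => dA'' i _ (hqA (i + 1) j)
  have oA' : ∀ i j, q (i - 1) j ∉ A i := fun i j => by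
    have := dA' (i - 1) _ (hqA (i - 1) j)
    rwa [sub_add_cancel] at this
  have oB : ∀ i j, q i (j + 1) ∉ B j := fun i j => dB'' j _ (hqB i (j + 1))
  have oB' : ∀ i j, q i (j - 1) ∉ B j := fun i j => by
    have := dB' (j - 1) _ (hqB i (j - 1))
    rwa [sub_add_cancel] at this
  obtain ⟨i, j, hne⟩ := Vale.Agent.P305.H136.DS.exists_ne_zero hs ht q
    (fun i j => W (h i j)) (fun i j => W (v i j))
    (by
      intro i j
      have := W_square (h i j).continuous (h (i + 1) j).continuous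
        (fun x y hxy => dA' i _ (hh i j x) (hxy ▸ hh (i + 1) j y))
      simpa only [Path.source, Path.target] using this)
    (by
      intro i j
      have := W_square (v i j).continuous (v i (j + 1)).continuous
        (fun x y hxy => dB' j _ (hv i j x) (hxy ▸ hv i (j + 1) y))
      simpa only [Path.source, Path.target] using this)
    (by
      intro i j x hx
      have hx' : x ∉ A i := by
        rcases hx with rfl | rfl
        · exact oA i j
        · exact oA' i j
      have := exp_W (h i j).continuous (x := x) (fun u hu => hx' (hu ▸ hh i j u))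
      simpa only [Path.source, Path.target] using this)
    (by
      intro i j x hx
      have hx' : x ∉ B j := by
        rcases hx with rfl | rfl
        · exact oB i j
        · exact oB' i j
      have := exp_W (v i j).continuous (x := x) (fun u hu => hx' (hu ▸ hv i j u))
      simpa only [Path.source, Path.target] using this)
    (fun i j e => oA i j (e ▸ hqA i j))
    (fun i j e => oB i j (e ▸ hqB i j))
    (fun i j e => oA i j (by
      have h1 := hqA (i + 1) (j + 1)
      rw [e] at h1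
      exact absurd (hqA i j) (dA'' i _ h1)))
    (fun i j e => oA i j (by
      have h1 := hqA (i + 1) j
      rw [← e] at h1
      exact absurd (hqA i (j + 1)) (dA'' i _ h1)))
  apply hne
  -- the two long paths
  have e1 : ∀ x ∉ A i, W (h i (j - 1)) x + W (h i j) x =
      W (((h i (j - 1)).cast rfl (by rw [sub_add_cancel])).trans (h i j)) x := by
    intro x hx
    rw [W_trans]
    · rfl
    · intro u hu
      exact hx (hu ▸ hh i (j - 1) u)
    · intro u hu
      exact hx (hu ▸ hh i j u)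
  have e2 : ∀ x ∉ B j, W (v (i - 1) j) x + W (v i j) x =
      W (((v (i - 1) j).cast rfl (by rw [sub_add_cancel])).trans (v i j)) x := by
    intro x hx
    rw [W_trans]
    · rfl
    · intro u hu
      exact hx (hu ▸ hv (i - 1) j u)
    · intro u hu
      exact hx (hu ▸ hv i j u)
  rw [e1 _ (oA' i j), e1 _ (oA i j), e2 _ (oB i j), e2 _ (oB' i j)]
  refine (hcon i j).zero _ _ ?_ ?_ (oA' i j) (oA i j) (oB' i j) (oB i j)
  · intro u
    rw [Path.trans_apply]
    split_ifs
    · exact hh i (j - 1) _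
    · exact hh i j _
  · intro u
    rw [Path.trans_apply]
    split_ifs
    · exact hv (i - 1) j _
    · exact hv i j _

end Vale.Agent.P305.H52
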