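import Vale.Agent.P305.R2.H273.EdgeDel

/-! Graphs from which a vertex set can be deleted so that a graph of towers remains. -/

set_option autoImplicit false

namespace Vale.Agent.P305.H52

open Vale.Agent.P305 Vale.Agent.P305.H529 Vale.Agent.P305.H287 Vale.Agent.P305.H273

theorem tower_le_add {n d : ℕ} (G : SimpleGraph (Fin n)) (X Y : Set (Fin n))
    (h : IsCoTower d (G.induce (Y \ X))) :
    oddPackingIn G Y ≤ inducedMatchingAt G X + (d + 1) :=
  (in_le_add G X Y).trans (Nat.add_le_add_left (in_cotower G _ h) _)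

theorem oddPacking_tower_le {n d : ℕ} (G : SimpleGraph (Fin n)) (X : Set (Fin n))
    (h : IsCoTower d (G.induce Xᶜ)) : oddPacking G ≤ inducedMatchingAt G X + (d + 1) := by
  rw [← oddPackingIn_univ]
  have h1 : (Xᶜ : Set (Fin n)) = Set.univ \ X := Set.compl_eq_univ_sdiff X
  have h2 : IsCoTower d (G.induce (Set.univ \ X)) := h1 ▸ h
  exact tower_le_add G X Set.univ h2

theorem tower_near (hB : AlmostLinear fun _ G => G.IsBipartite) (κ : ℕ → ℕ)
    (hκ : ∀ ε : ℝ, 0 < ε → ∃ c : ℝ, ∀ N : ℕ, (κ N : ℝ) ≤ c * ((N : ℝ) + 1) ^ ε) :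
    AlmostLinear fun n G => ∃ (X : Set (Fin n)) (d : ℕ),
      inducedMatchingAt G X ≤ κ (n + G.edgeSet.ncard) ∧ d ≤ κ (n + G.edgeSet.ncard) ∧
      IsCoTower d (G.induce Xᶜ) := by
  obtain ⟨P, T, hP, hT⟩ := odd_almostLinear hB (fun N => 2 * κ N + 1) (by
    intro ε hε
    obtain ⟨c, hc⟩ := hκ ε hε
    refine ⟨2 * c + 1, fun N => ?_⟩
    have h1 : (1 : ℝ) ≤ ((N : ℝ) + 1) ^ ε :=
      Real.one_le_rpow (by linarith [(Nat.cast_nonneg N : (0 : ℝ) ≤ N)]) hε.le
    have h2 := hc N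
    push_cast
    nlinarith)
  refine ⟨P, T, hP.mono ?_ fun _ _ _ => le_rfl, hT⟩
  rintro n G ⟨X, d, hX, hd, h⟩
  have := oddPacking_tower_le G X h
  show oddPacking G ≤ 2 * κ (n + G.edgeSet.ncard) + 1
  omega

end Vale.Agent.P305.H52
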